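import Mathlib

/-!
# Row 211 / S0326: rotated half-open squares in the plane (definitions only)

`sq f c ρ` is the half-open square with corner `c`, side `ρ`, whose edges are parallel to the
orthonormal frame `f`.
-/

namespace Crest.Agent.Helper5

/-- The Euclidean plane. -/
abbrev E2 : Type := EuclideanSpace ℝ (Fin 2)

/-- Half-open square with corner `c`, side `ρ`, edges along the orthonormal frame `f`. -/
def sq (f : OrthonormalBasis (Fin 2) ℝ E2) (c : E2) (ρ : ℝ) : Set E2 :=
  {p | ∀ k, 0 ≤ inner ℝ (f k) (p - c) ∧ inner ℝ (f k) (p - c) < ρ}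

/-- The `j`-th lattice point of the lattice with origin `p₀`, mesh `ρ`, frame `f`. -/
noncomputable def latPt (f : OrthonormalBasis (Fin 2) ℝ E2) (p₀ : E2) (ρ : ℝ) (j : ℤ × ℤ) : E2 :=
  p₀ + ρ • ((j.1 : ℝ) • f 0 + (j.2 : ℝ) • f 1)

end Crest.Agent.Helper5
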