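import Crest.Agent.Helper5.SqLocal

/-!
# Row 211 / S0326: analytic auxiliary lemmas
-/

set_option autoImplicit false
open MeasureTheory Metric Filter Topology

namespace Crest.Agent.Helper5

/-- The first-order remainder of a `C¹` map, controlled by the oscillation of its derivative. -/
theorem remainder_bound (V : E2 → E2) (U K0 : Set E2) (hU : IsOpen U) (hV : ContDiffOn ℝ 1 V U)
    (hKU : K0 ⊆ U) (p₀ p : E2) (d ω : ℝ) (hball : closedBall p₀ d ⊆ K0) (hp : ‖p - p₀‖ ≤ d)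
    (hω : ∀ x ∈ K0, ∀ y ∈ K0, dist x y ≤ d → ‖fderiv ℝ V x - fderiv ℝ V y‖ ≤ ω) :
    ‖V p - V p₀ - fderiv ℝ V p₀ (p - p₀)‖ ≤ ω * ‖p - p₀‖ := by
  have hd : 0 ≤ d := le_trans (norm_nonneg _) hp
  have hp₀ : p₀ ∈ closedBall p₀ d := mem_closedBall_self hd
  have hpm : p ∈ closedBall p₀ d := by rw [mem_closedBall, dist_eq_norm]; exact hp
  refine Convex.norm_image_sub_le_of_norm_hasFDerivWithin_le' (f := V) (f' := fderiv ℝ V)
    (s := closedBall p₀ d) ?_ ?_ (convex_closedBall p₀ d) hp₀ hpm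
  · intro x hx
    have hxU : x ∈ U := hKU (hball hx)
    exact ((hV.differentiableOn one_ne_zero x hxU).differentiableAt
      (hU.mem_nhds hxU)).hasFDerivAt.hasFDerivWithinAt
  · intro x hx
    exact hω x (hball hx) p₀ (hball hp₀) (by rwa [mem_closedBall] at hx)

/-- Uniform continuity on a compact set, in `≤` form with norms. -/
theorem unif_le {G : Type*} [NormedAddCommGroup G] (K0 : Set E2) (hK0 : IsCompact K0)
    (φ : E2 → G) (hφ : ContinuousOn φ K0) (ε : ℝ) (hε : 0 < ε) :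
    ∃ δ > 0, ∀ x ∈ K0, ∀ y ∈ K0, dist x y ≤ δ → ‖φ x - φ y‖ ≤ ε := by
  have h := hK0.uniformContinuousOn_of_continuous hφ
  rw [Metric.uniformContinuousOn_iff_le] at h
  obtain ⟨δ, hδ, H⟩ := h ε hε
  refine ⟨δ, hδ, fun x hx y hy hxy => ?_⟩
  rw [← dist_eq_norm]
  exact H x hx y hy hxy

/-- The volume of a small closed thickening of a compact set is close to its volume. -/
theorem thick_vol (D : Set E2) (hD : IsCompact D) (β : ℝ) (hβ : 0 < β) :
    ∃ δ > 0, ∀ ρ : ℝ, 0 ≤ ρ → ρ ≤ δ →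
      (volume (cthickening ρ D)).toReal - (volume D).toReal ≤ β := by
  have h1 : Tendsto (fun r => volume (cthickening r D)) (𝓝 0) (𝓝 (volume D)) :=
    tendsto_measure_cthickening_of_isCompact hD
  have hfin : volume D ≠ ⊤ := hD.measure_lt_top.ne
  have h2 : Tendsto (fun r => (volume (cthickening r D)).toReal) (𝓝 0)
      (𝓝 (volume D).toReal) := (ENNReal.tendsto_toReal hfin).comp h1
  rw [Metric.tendsto_nhds] at h2
  have h3 := h2 β hβ
  rw [Metric.eventually_nhds_iff] at h3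
  obtain ⟨δ, hδ, H⟩ := h3
  refine ⟨δ / 2, by positivity, fun ρ hρ0 hρ => ?_⟩
  have hdist : dist ρ 0 < δ := by
    rw [Real.dist_eq, sub_zero, abs_of_nonneg hρ0]; linarith
  have := H hdist
  rw [Real.dist_eq] at this
  linarith [(abs_lt.mp this).2]

/-- Only finitely many lattice points lie in a bounded region. -/
theorem finite_lattice_near (f : OrthonormalBasis (Fin 2) ℝ E2) (p₀ : E2) (ρ : ℝ) (hρ : 0 < ρ)
    (R : ℝ) : {j : ℤ × ℤ | ‖latPt f p₀ ρ j - p₀‖ ≤ R}.Finite := by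
  set B : ℤ := ⌈R / ρ⌉ with hB
  have hsub : {j : ℤ × ℤ | ‖latPt f p₀ ρ j - p₀‖ ≤ R} ⊆
      (Set.Icc (-B) B) ×ˢ (Set.Icc (-B) B) := by
    intro j hj
    have hj' : ‖latPt f p₀ ρ j - p₀‖ ≤ R := hj
    have key : ∀ k : Fin 2, |ρ * (if k = 0 then (j.1 : ℝ) else (j.2 : ℝ))| ≤ R := by
      intro k
      have h := frame_abs_inner_le f k (latPt f p₀ ρ j - p₀)
      rw [latPt_sub, frame_inner_comb] at h
      have : (if k = 0 then ρ * (j.1 : ℝ) else ρ * (j.2 : ℝ)) =
          ρ * (if k = 0 then (j.1 : ℝ) else (j.2 : ℝ)) := by split_ifs <;> rfl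
      rw [this] at h
      exact h.trans (by rw [latPt_sub] at hj'; exact hj')
    have bound : ∀ a : ℤ, |ρ * (a : ℝ)| ≤ R → a ∈ Set.Icc (-B) B := by
      intro a ha
      rw [abs_mul, abs_of_pos hρ] at ha
      have h1 : |(a : ℝ)| ≤ R / ρ := by rw [le_div_iff₀ hρ]; linarith
      have h2 := abs_le.mp h1
      have h3 : (a : ℝ) ≤ (B : ℝ) := h2.2.trans (Int.le_ceil _)
      have h4 : -(B : ℝ) ≤ (a : ℝ) := by linarith [Int.le_ceil (R / ρ), h2.1]
      constructor
      · exact_mod_cast h4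
      · exact_mod_cast h3
    have k0 := key 0
    have k1 := key 1
    simp only [if_true, Fin.isValue, one_ne_zero, if_false] at k0 k1
    exact ⟨bound _ k0, bound _ k1⟩
  exact ((Set.finite_Icc (-B) B).prod (Set.finite_Icc (-B) B)).subset hsub

end Crest.Agent.Helper5
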