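import Crest.Agent.Helper5.SqDefs

/-!
# Row 211 / S0326: elementary facts on frames, lattice points and squares
-/

set_option autoImplicit false

namespace Crest.Agent.Helper5

open scoped RealInnerProductSpace

variable (f : OrthonormalBasis (Fin 2) ℝ E2)

theorem frame_inner (k l : Fin 2) : inner ℝ (f k) (f l) = if k = l then (1 : ℝ) else 0 :=
  f.inner_eq_ite k l

theorem frame_decomp (v : E2) : v = inner ℝ (f 0) v • f 0 + inner ℝ (f 1) v • f 1 := by
  have h := f.sum_repr' v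
  rw [Fin.sum_univ_two] at h
  exact h.symm

theorem frame_inner_comb0 (x y : ℝ) : inner ℝ (f 0) (x • f 0 + y • f 1) = x := by
  rw [inner_add_right, inner_smul_right, inner_smul_right, frame_inner, frame_inner]
  simp

theorem frame_inner_comb1 (x y : ℝ) : inner ℝ (f 1) (x • f 0 + y • f 1) = y := by
  rw [inner_add_right, inner_smul_right, inner_smul_right, frame_inner, frame_inner]
  simp

theorem frame_inner_comb (k : Fin 2) (x y : ℝ) :
    inner ℝ (f k) (x • f 0 + y • f 1) = if k = 0 then x else y := by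
  fin_cases k
  · simpa using frame_inner_comb0 f x y
  · simpa using frame_inner_comb1 f x y

theorem frame_abs_inner_le (k : Fin 2) (v : E2) : |inner ℝ (f k) v| ≤ ‖v‖ := by
  have h := abs_real_inner_le_norm (f k) v
  rwa [f.norm_eq_one, one_mul] at h

theorem frame_norm_le (v : E2) : ‖v‖ ≤ |inner ℝ (f 0) v| + |inner ℝ (f 1) v| := by
  conv_lhs => rw [frame_decomp f v]
  refine (norm_add_le _ _).trans ?_
  rw [norm_smul, norm_smul, f.norm_eq_one, f.norm_eq_one, mul_one, mul_one, Real.norm_eq_abs,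
    Real.norm_eq_abs]

theorem frame_ext (v w : E2) (h0 : inner ℝ (f 0) v = inner ℝ (f 0) w)
    (h1 : inner ℝ (f 1) v = inner ℝ (f 1) w) : v = w := by
  rw [frame_decomp f v, frame_decomp f w, h0, h1]

/-! ### lattice points -/

theorem latPt_sub (p₀ : E2) (ρ : ℝ) (j : ℤ × ℤ) :
    latPt f p₀ ρ j - p₀ = (ρ * j.1) • f 0 + (ρ * j.2) • f 1 := by
  unfold latPt
  rw [add_sub_cancel_left, smul_add, smul_smul, smul_smul]

theorem latPt_eq (p₀ : E2) (ρ : ℝ) (j : ℤ × ℤ) :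
    latPt f p₀ ρ j = p₀ + ((ρ * j.1) • f 0 + (ρ * j.2) • f 1) := by
  rw [← latPt_sub f p₀ ρ j]; abel

theorem latPt_zero_add (p₀ : E2) (ρ : ℝ) (j : ℤ × ℤ) :
    latPt f p₀ ρ j = p₀ + latPt f 0 ρ j := by
  unfold latPt; rw [zero_add]

theorem inner_sub_latPt (k : Fin 2) (p p₀ : E2) (ρ : ℝ) (j : ℤ × ℤ) :
    inner ℝ (f k) (p - latPt f p₀ ρ j) =
      inner ℝ (f k) (p - p₀) - ρ * (if k = 0 then (j.1 : ℝ) else (j.2 : ℝ)) := by
  have : p - latPt f p₀ ρ j = (p - p₀) - ((ρ * j.1) • f 0 + (ρ * j.2) • f 1) := by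
    rw [latPt_eq]; abel
  rw [this, inner_sub_right, frame_inner_comb]
  split_ifs <;> rfl

/-! ### squares -/

theorem mem_sq_iff (c : E2) (ρ : ℝ) (p : E2) :
    p ∈ sq f c ρ ↔ ∀ k, 0 ≤ inner ℝ (f k) (p - c) ∧ inner ℝ (f k) (p - c) < ρ := Iff.rfl

theorem self_mem_sq (c : E2) (ρ : ℝ) (hρ : 0 < ρ) : c ∈ sq f c ρ := by
  intro k; simp [hρ]

theorem norm_sub_le_of_mem_sq (c : E2) (ρ : ℝ) (p q : E2) (hp : p ∈ sq f c ρ)
    (hq : q ∈ sq f c ρ) : ‖p - q‖ ≤ 2 * ρ := by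
  refine (frame_norm_le f _).trans ?_
  have e : ∀ k, inner ℝ (f k) (p - q) = inner ℝ (f k) (p - c) - inner ℝ (f k) (q - c) := by
    intro k; rw [← inner_sub_right]; congr 1; abel
  have h0 : |inner ℝ (f 0) (p - q)| ≤ ρ := by
    rw [e, abs_le]; constructor <;> linarith [(hp 0).1, (hp 0).2, (hq 0).1, (hq 0).2]
  have h1 : |inner ℝ (f 1) (p - q)| ≤ ρ := by
    rw [e, abs_le]; constructor <;> linarith [(hp 1).1, (hp 1).2, (hq 1).1, (hq 1).2]
  linarith

/-- Every point lies in a cell of the lattice of squares. -/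
theorem exists_mem_cell (p₀ : E2) (ρ : ℝ) (hρ : 0 < ρ) (p : E2) :
    ∃ j : ℤ × ℤ, p ∈ sq f (latPt f p₀ ρ j) ρ := by
  refine ⟨(⌊inner ℝ (f 0) (p - p₀) / ρ⌋, ⌊inner ℝ (f 1) (p - p₀) / ρ⌋), ?_⟩
  intro k
  rw [inner_sub_latPt]
  fin_cases k
  · simp only [Fin.zero_eta, if_true]
    have h1 := Int.floor_le (inner ℝ (f 0) (p - p₀) / ρ)
    have h2 := Int.lt_floor_add_one (inner ℝ (f 0) (p - p₀) / ρ)
    rw [le_div_iff₀ hρ] at h1
    rw [div_lt_iff₀ hρ] at h2
    constructor <;> nlinarith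
  · simp only [Fin.mk_one, Fin.isValue, one_ne_zero, if_false]
    have h1 := Int.floor_le (inner ℝ (f 1) (p - p₀) / ρ)
    have h2 := Int.lt_floor_add_one (inner ℝ (f 1) (p - p₀) / ρ)
    rw [le_div_iff₀ hρ] at h1
    rw [div_lt_iff₀ hρ] at h2
    constructor <;> nlinarith

/-- Distinct cells of the lattice of squares are disjoint. -/
theorem cell_disjoint (p₀ : E2) (ρ : ℝ) (hρ : 0 < ρ) (j j' : ℤ × ℤ) (hj : j ≠ j') :
    Disjoint (sq f (latPt f p₀ ρ j) ρ) (sq f (latPt f p₀ ρ j') ρ) := by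
  rw [Set.disjoint_left]
  intro p hp hp'
  apply hj
  have key : ∀ (a b : ℤ) (x : ℝ), 0 ≤ x - ρ * a → x - ρ * a < ρ → 0 ≤ x - ρ * b →
      x - ρ * b < ρ → a = b := by
    intro a b x h1 h2 h3 h4
    have h5 : (a : ℝ) < b + 1 := by
      by_contra hcon
      rw [not_lt] at hcon
      nlinarith
    have h6 : (b : ℝ) < a + 1 := by
      by_contra hcon
      rw [not_lt] at hcon
      nlinarith
    have h7 : a < b + 1 := by exact_mod_cast h5
    have h8 : b < a + 1 := by exact_mod_cast h6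
    omega
  have h0 := hp 0
  have h0' := hp' 0
  have h1 := hp 1
  have h1' := hp' 1
  rw [inner_sub_latPt] at h0 h0' h1 h1'
  simp only [if_true, Fin.isValue, one_ne_zero, if_false] at h0 h0' h1 h1'
  exact Prod.ext (key _ _ _ h0.1 h0.2 h0'.1 h0'.2) (key _ _ _ h1.1 h1.2 h1'.1 h1'.2)

/-- The square thickened by `t` on every side. -/
theorem mem_sq_thick (c : E2) (ρ t : ℝ) (p q : E2) (hp : p ∈ sq f c ρ) (hq : ‖q - p‖ ≤ t) :
    q ∈ sq f (c - t • (f 0 + f 1)) (ρ + 2 * t) := by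
  intro k
  have e : inner ℝ (f k) (q - (c - t • (f 0 + f 1))) =
      inner ℝ (f k) (p - c) + inner ℝ (f k) (q - p) + t := by
    have : q - (c - t • (f 0 + f 1)) = (p - c) + (q - p) + (t • f 0 + t • f 1) := by
      rw [smul_add]; abel
    rw [this, inner_add_right, inner_add_right, frame_inner_comb]
    simp
  have h := abs_le.mp ((frame_abs_inner_le f k (q - p)).trans hq)
  rw [e]
  constructor <;> linarith [(hp k).1, (hp k).2, h.1, h.2]

theorem sq_subset_sq_thick (c : E2) (ρ t : ℝ) (ht : 0 ≤ t) :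
    sq f c ρ ⊆ sq f (c - t • (f 0 + f 1)) (ρ + 2 * t) := by
  intro p hp
  exact mem_sq_thick f c ρ t p p hp (by simpa using ht)

end Crest.Agent.Helper5
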