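import Crest.Agent.Helper5.SqAnalysis

/-!
# Row 211 / S0326: the two-level construction (core)
-/

set_option autoImplicit false
open MeasureTheory Metric

namespace Crest.Agent.Helper5

/-- Statement of the kit lemma K2 (zero-diagonal orthonormal frame of a traceless map). -/
def FrameProp : Prop :=
  ∀ A : E2 →L[ℝ] E2, LinearMap.trace ℝ _ A.toLinearMap = 0 →
    ∃ (f : OrthonormalBasis (Fin 2) ℝ E2) (α γ : ℝ), A (f 0) = γ • f 1 ∧ A (f 1) = α • f 0 ∧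
      LinearMap.det A.toLinearMap = -(α * γ)

/-- The cost density. -/
noncomputable def Jc (h : ℝ) (g : E2) : ℝ := 1 / Real.sqrt (1 + (g 0) ^ 2 + h ^ 2 * (g 1) ^ 2)

/-- Statement of the kit lemma K4. -/
def JLip : Prop := ∀ (h : ℝ), 0 < h → ∀ g g' : E2, |Jc h g - Jc h g'| ≤ max 1 h * ‖g - g'‖

/-- Statement of the cost lemma. -/
def CostProp : Prop :=
  ∀ (D K0 : Set E2) (_ : IsCompact D) (_ : IsCompact K0)
    (F : E2 → ℝ) (_ : ContinuousOn F K0) (_ : ∀ q ∈ K0, 0 ≤ F q ∧ F q ≤ 1)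
    (f₀ : OrthonormalBasis (Fin 2) ℝ E2) (r t ρ τ : ℝ) (_ : 0 < r) (_ : 0 ≤ t) (_ : 0 < ρ)
    (_ : 0 ≤ τ)
    (_ : Metric.cthickening (2 * r) D ⊆ K0)
    (Z : Finset (ℤ × ℤ))
    (_ : ∀ z ∈ Z, (sq f₀ (latPt f₀ 0 r z) r ∩ D).Nonempty)
    (_ : ∀ z ∈ Z, sq f₀ (latPt f₀ 0 r z - t • (f₀ 0 + f₀ 1)) (r + 2 * t) ⊆ K0)
    (fz : ℤ × ℤ → OrthonormalBasis (Fin 2) ℝ E2) (pz : ℤ × ℤ → E2)
    (I : ℤ × ℤ → Finset (ℤ × ℤ))
    (_ : ∀ z ∈ Z, ∀ j ∈ I z, sq (fz z) (latPt (fz z) (pz z) ρ j) ρ ⊆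
      sq f₀ (latPt f₀ 0 r z - t • (f₀ 0 + f₀ 1)) (r + 2 * t))
    (Jv : ℤ × ℤ → ℤ × ℤ → ℝ)
    (_ : ∀ z ∈ Z, ∀ j ∈ I z, ∀ q ∈ sq (fz z) (latPt (fz z) (pz z) ρ j) ρ, Jv z j ≤ F q + τ),
    ∑ z ∈ Z, ∑ j ∈ I z, ρ ^ 2 * Jv z j ≤
      (∫ q in D, F q) + (τ + (1 + τ) * ((1 + 2 * t / r) ^ 2 - 1)) * (volume K0).toReal +
        (1 + (τ + (1 + τ) * ((1 + 2 * t / r) ^ 2 - 1))) *
          ((volume (Metric.cthickening (2 * r) D)).toReal - (volume D).toReal)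

theorem Jc_nonneg (h : ℝ) (g : E2) : 0 ≤ Jc h g := by
  unfold Jc; positivity

theorem Jc_le_one (h : ℝ) (g : E2) : Jc h g ≤ 1 := by
  unfold Jc
  have h1 : (1 : ℝ) ≤ Real.sqrt (1 + (g 0) ^ 2 + h ^ 2 * (g 1) ^ 2) := by
    rw [Real.one_le_sqrt]
    nlinarith [sq_nonneg (g 0), sq_nonneg (h * g 1)]
  exact div_le_one_of_le₀ h1 (by positivity)

theorem Jc_continuous (hJ : JLip) (h : ℝ) (hh : 0 < h) : Continuous (Jc h) := by
  have : LipschitzWith (Real.toNNReal (max 1 h)) (Jc h) := by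
    refine LipschitzWith.of_dist_le_mul fun g g' => ?_
    rw [Real.dist_eq, dist_eq_norm, Real.coe_toNNReal _ (by positivity)]
    exact hJ h hh g g'
  exact this.continuous

set_option maxHeartbeats 1600000 in
theorem core (hlat : LatticeCover) (hframe : FrameProp) (hJ : JLip) (hcost : CostProp)
    (D : Set E2) (hD : IsCompact D) (V : E2 → E2) (U : Set E2) (hU : IsOpen U)
    (hV : ContDiffOn ℝ 1 V U) (L h : ℝ) (hL : 0 < L) (hh : 0 < h)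
    (htr : ∀ p ∈ D, LinearMap.trace ℝ _ (fderiv ℝ V p).toLinearMap = 0)
    (K0 : Set E2) (hK0 : IsCompact K0) (hKU : K0 ⊆ U)
    (M₁ κ : ℝ) (hM₁0 : 0 ≤ M₁) (hM₁ : ∀ q ∈ D, ‖fderiv ℝ V q‖ ≤ M₁) (hκ : 0 < κ)
    (hdetκ : ∀ p ∈ D, LinearMap.det (fderiv ℝ V p).toLinearMap ≤ 0 ∧
      L ^ 2 * (-LinearMap.det (fderiv ℝ V p).toLinearMap) ≤ 1 - κ)
    (η r ρ t τ ω : ℝ) (hη : 0 < η) (hr : 0 < r) (hρ : 0 < ρ) (hτ0 : 0 ≤ τ) (hω0 : 0 ≤ ω)
    (ht : t = (2 * (1 + L * M₁) / κ + 2) * ρ)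
    (hball : ∀ p ∈ D, closedBall p (2 * (r + 2 * t)) ⊆ K0)
    (hDr : cthickening (2 * r) D ⊆ K0)
    (hω : ∀ x ∈ K0, ∀ y ∈ K0, dist x y ≤ 2 * r → ‖fderiv ℝ V x - fderiv ℝ V y‖ ≤ ω)
    (hωη : L * ω * (2 * r) ≤ η * ρ)
    (hτ : ∀ p ∈ D, ∀ q ∈ K0, ∀ u : E2, ‖q - p‖ ≤ 2 * (r + 2 * t) → ‖u‖ ≤ 2 * (r + 2 * t) →
      max 1 h * ‖V p + fderiv ℝ V p u - V q‖ ≤ τ) :
    ∃ (S : Finset ((_ : ℤ × ℤ) × (ℤ × ℤ))) (c a b g : ((_ : ℤ × ℤ) × (ℤ × ℤ)) → E2),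
      (∀ i ∈ S, a i ≠ 0 ∧ ‖b i‖ = ‖a i‖ ∧ inner ℝ (a i) (b i) = 0) ∧
      (∀ z : ℝ × E2, (∃ p ∈ D, |z.1| ≤ L ∧ z.2 = p + z.1 • V p) →
        ∃ i ∈ S, ∃ x ∈ Set.Icc (0 : ℝ) 1, ∃ y ∈ Set.Icc (0 : ℝ) 1,
          z.2 = c i + x • a i + y • b i + z.1 • g i) ∧
      ∑ i ∈ S, ‖a i‖ ^ 2 * Jc h (g i) ≤
        (1 + 2 * η) ^ 2 * ((∫ q in D, Jc h (V q)) +
          (τ + (1 + τ) * ((1 + 2 * t / r) ^ 2 - 1)) * (volume K0).toReal +
          (1 + (τ + (1 + τ) * ((1 + 2 * t / r) ^ 2 - 1))) *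
            ((volume (cthickening (2 * r) D)).toReal - (volume D).toReal)) := by
  classical
  obtain ⟨f₀, hf₀⟩ : ∃ f₀ : OrthonormalBasis (Fin 2) ℝ E2, f₀ = EuclideanSpace.basisFun (Fin 2) ℝ :=
    ⟨_, rfl⟩
  obtain ⟨K1c, hK1c⟩ : ∃ K1c : ℝ, K1c = 2 * (1 + L * M₁) / κ := ⟨_, rfl⟩
  have hK1c0 : 0 ≤ K1c := by rw [hK1c]; positivity
  rw [← hK1c] at ht
  have ht0 : 0 ≤ t := by rw [ht]; positivity
  -- the grid cells meeting `D`
  have hZfin : {z : ℤ × ℤ | (sq f₀ (latPt f₀ 0 r z) r ∩ D).Nonempty}.Finite := by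
    obtain ⟨R, hR⟩ := hD.isBounded.exists_norm_le
    refine (finite_lattice_near f₀ 0 r hr (R + 2 * r)).subset ?_
    rintro z ⟨p, hpz, hpD⟩
    show ‖latPt f₀ 0 r z - 0‖ ≤ R + 2 * r
    have h1 := norm_sub_le_of_mem_sq f₀ _ r _ _ (self_mem_sq f₀ (latPt f₀ 0 r z) r hr) hpz
    have h2 := hR p hpD
    calc ‖latPt f₀ 0 r z - 0‖ = ‖(latPt f₀ 0 r z - p) + p‖ := by congr 1; abel
      _ ≤ ‖latPt f₀ 0 r z - p‖ + ‖p‖ := norm_add_le _ _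
      _ ≤ 2 * r + R := add_le_add h1 h2
      _ = R + 2 * r := by ring
  obtain ⟨Z, hZmem⟩ : ∃ Z : Finset (ℤ × ℤ), ∀ z, z ∈ Z ↔ (sq f₀ (latPt f₀ 0 r z) r ∩ D).Nonempty :=
    ⟨hZfin.toFinset, fun z => hZfin.mem_toFinset⟩
  -- base points
  have hpz_ex : ∀ z : ℤ × ℤ, ∃ p : E2, z ∈ Z → p ∈ sq f₀ (latPt f₀ 0 r z) r ∧ p ∈ D := by
    intro z
    by_cases hz : z ∈ Z
    · obtain ⟨p, hp1, hp2⟩ := (hZmem z).1 hz
      exact ⟨p, fun _ => ⟨hp1, hp2⟩⟩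
    · exact ⟨0, fun h => absurd h hz⟩
  choose pz hpz using hpz_ex
  -- frames
  have hfr_ex : ∀ z : ℤ × ℤ, ∃ (f : OrthonormalBasis (Fin 2) ℝ E2) (α γ : ℝ), z ∈ Z →
      (fderiv ℝ V (pz z)) (f 0) = γ • f 1 ∧ (fderiv ℝ V (pz z)) (f 1) = α • f 0 ∧
      LinearMap.det (fderiv ℝ V (pz z)).toLinearMap = -(α * γ) := by
    intro z
    by_cases hz : z ∈ Z
    · obtain ⟨f, α, γ, h1, h2, h3⟩ := hframe (fderiv ℝ V (pz z)) (htr _ (hpz z hz).2)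
      exact ⟨f, α, γ, fun _ => ⟨h1, h2, h3⟩⟩
    · exact ⟨f₀, 0, 0, fun h => absurd h hz⟩
  choose fz αz γz hfz using hfr_ex
  -- thickened cells and the sub-squares inside them
  obtain ⟨CellP, hCellP⟩ : ∃ CellP : ℤ × ℤ → Set E2, CellP = fun z =>
      sq f₀ (latPt f₀ 0 r z - t • (f₀ 0 + f₀ 1)) (r + 2 * t) := ⟨_, rfl⟩
  have hpzP : ∀ z ∈ Z, pz z ∈ CellP z := by
    intro z hz
    rw [hCellP]
    exact sq_subset_sq_thick f₀ _ r t ht0 (hpz z hz).1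
  have hCellPdiam : ∀ z, ∀ q ∈ CellP z, ∀ q' ∈ CellP z, ‖q - q'‖ ≤ 2 * (r + 2 * t) := by
    intro z q hq q' hq'
    rw [hCellP] at hq hq'
    exact norm_sub_le_of_mem_sq f₀ _ _ _ _ hq hq'
  have hIfin : ∀ z, {j : ℤ × ℤ | z ∈ Z ∧
      sq (fz z) (latPt (fz z) (pz z) ρ j) ρ ⊆ CellP z}.Finite := by
    intro z
    by_cases hz : z ∈ Z
    · refine (finite_lattice_near (fz z) (pz z) ρ hρ (2 * (r + 2 * t))).subset ?_
      rintro j ⟨_, hj⟩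
      have h1 : latPt (fz z) (pz z) ρ j ∈ CellP z := hj (self_mem_sq _ _ ρ hρ)
      exact hCellPdiam z _ h1 _ (hpzP z hz)
    · refine Set.finite_empty.subset ?_
      rintro j ⟨hz', _⟩
      exact absurd hz' hz
  obtain ⟨I, hImem⟩ : ∃ I : ℤ × ℤ → Finset (ℤ × ℤ), ∀ z j, j ∈ I z ↔ (z ∈ Z ∧
      sq (fz z) (latPt (fz z) (pz z) ρ j) ρ ⊆ CellP z) :=
    ⟨fun z => (hIfin z).toFinset, fun z j => (hIfin z).mem_toFinset⟩
  have hZK : ∀ z ∈ Z, CellP z ⊆ K0 := by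
    intro z hz q hq
    refine hball _ (hpz z hz).2 ?_
    rw [mem_closedBall, dist_eq_norm]
    exact hCellPdiam z q hq _ (hpzP z hz)
  refine ⟨Z.sigma I,
    fun i => latPt (fz i.1) (pz i.1) ρ i.2 - (η * ρ) • (fz i.1 0 + fz i.1 1),
    fun i => ((1 + 2 * η) * ρ) • fz i.1 0,
    fun i => ((1 + 2 * η) * ρ) • fz i.1 1,
    fun i => V (pz i.1) + fderiv ℝ V (pz i.1) (latPt (fz i.1) (pz i.1) ρ i.2 - pz i.1),
    ?_, ?_, ?_⟩
  · -- squares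
    rintro ⟨z, j⟩ -
    have hpos : 0 < (1 + 2 * η) * ρ := by positivity
    refine ⟨?_, ?_, ?_⟩
    · intro h0
      have := congrArg norm h0
      simp only [norm_smul, (fz z).norm_eq_one, norm_zero, mul_one, Real.norm_eq_abs,
        abs_of_pos hpos] at this
      exact hpos.ne' this
    · simp only [norm_smul, (fz z).norm_eq_one]
    · simp only [inner_smul_left, inner_smul_right, frame_inner]
      simp
  · -- the cover
    rintro ⟨s, ξ⟩ ⟨p, hpD, hs, hξ⟩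
    simp only at hs hξ ⊢
    obtain ⟨z, hpz'⟩ := exists_mem_cell f₀ 0 r hr p
    have hzZ : z ∈ Z := (hZmem z).2 ⟨p, hpz', hpD⟩
    obtain ⟨hpzc, hpzD⟩ := hpz z hzZ
    obtain ⟨hA0, hA1, hdetz⟩ := hfz z hzZ
    obtain ⟨A, hA⟩ : ∃ A : E2 →L[ℝ] E2, A = fderiv ℝ V (pz z) := ⟨_, rfl⟩
    rw [← hA] at hA0 hA1 hdetz
    have hw : ‖p - pz z‖ ≤ 2 * r := norm_sub_le_of_mem_sq f₀ _ r _ _ hpz' hpzc
    have hball2 : closedBall (pz z) (2 * r) ⊆ K0 :=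
      (closedBall_subset_closedBall (by linarith)).trans (hball _ hpzD)
    have hrem := remainder_bound V U K0 hU hV hKU (pz z) p (2 * r) ω hball2 hw hω
    rw [← hA] at hrem
    obtain ⟨e, he⟩ : ∃ e : E2, e = s • (V p - V (pz z) - A (p - pz z)) := ⟨_, rfl⟩
    have he_norm : ‖e‖ ≤ η * ρ := by
      rw [he, norm_smul, Real.norm_eq_abs]
      calc |s| * ‖V p - V (pz z) - A (p - pz z)‖ ≤ L * (ω * ‖p - pz z‖) :=
            mul_le_mul hs hrem (norm_nonneg _) hL.le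
        _ ≤ L * (ω * (2 * r)) := by gcongr
        _ = L * ω * (2 * r) := by ring
        _ ≤ η * ρ := hωη
    have hαγ : αz z * γz z = -LinearMap.det A.toLinearMap := by rw [hdetz]; ring
    have hdk := hdetκ _ hpzD
    rw [← hA] at hdk
    have h0 : 0 ≤ αz z * γz z := by rw [hαγ]; linarith [hdk.1]
    have h1 : L ^ 2 * (αz z * γz z) ≤ 1 - κ := by rw [hαγ]; exact hdk.2
    have hAn : ‖A‖ ≤ M₁ := by rw [hA]; exact hM₁ _ hpzD
    have hα : |αz z| ≤ M₁ := by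
      have : ‖A (fz z 1)‖ ≤ ‖A‖ * ‖fz z 1‖ := A.le_opNorm _
      rw [hA1, norm_smul, (fz z).norm_eq_one, (fz z).norm_eq_one, mul_one, mul_one,
        Real.norm_eq_abs] at this
      exact this.trans hAn
    have hγ : |γz z| ≤ M₁ := by
      have : ‖A (fz z 0)‖ ≤ ‖A‖ * ‖fz z 0‖ := A.le_opNorm _
      rw [hA0, norm_smul, (fz z).norm_eq_one, (fz z).norm_eq_one, mul_one, mul_one,
        Real.norm_eq_abs] at this
      exact this.trans hAn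
    obtain ⟨j, x, hx, y, hy, heq, hnorm⟩ := local_cover (fz z) hlat A (αz z) (γz z) hA0 hA1
      L κ M₁ hL hκ hM₁0 h0 h1 hα hγ ρ η hρ hη.le s hs (p - pz z) e he_norm
    rw [← hK1c] at hnorm
    have hjI : j ∈ I z := by
      rw [hImem]
      refine ⟨hzZ, ?_⟩
      intro q hq
      have hq1 : ‖q - latPt (fz z) (pz z) ρ j‖ ≤ 2 * ρ :=
        norm_sub_le_of_mem_sq (fz z) _ ρ _ _ hq (self_mem_sq _ _ ρ hρ)
      have hq2 : ‖q - p‖ ≤ t := by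
        have e1 : q - p = (q - latPt (fz z) (pz z) ρ j) -
            ((p - pz z) - latPt (fz z) 0 ρ j) := by
          rw [latPt_zero_add (fz z) (pz z)]; abel
        rw [e1, ht]
        calc _ ≤ ‖q - latPt (fz z) (pz z) ρ j‖ + ‖(p - pz z) - latPt (fz z) 0 ρ j‖ :=
              norm_sub_le _ _
          _ ≤ 2 * ρ + K1c * ρ := add_le_add hq1 hnorm
          _ = (K1c + 2) * ρ := by ring
      rw [hCellP]
      exact mem_sq_thick f₀ _ r t p q hpz' hq2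
    have hη1 : (0 : ℝ) < 1 + 2 * η := by positivity
    refine ⟨⟨z, j⟩, Finset.mem_sigma.2 ⟨hzZ, hjI⟩, (x + η) / (1 + 2 * η), ?_,
      (y + η) / (1 + 2 * η), ?_, ?_⟩
    · rw [Set.mem_Icc, le_div_iff₀ hη1, div_le_iff₀ hη1]
      constructor <;> linarith [hx.1, hx.2]
    · rw [Set.mem_Icc, le_div_iff₀ hη1, div_le_iff₀ hη1]
      constructor <;> linarith [hy.1, hy.2]
    · simp only
      rw [hξ, ← hA]
      have e1 : latPt (fz z) (pz z) ρ j - pz z = latPt (fz z) 0 ρ j := by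
        rw [latPt_zero_add (fz z) (pz z)]; abel
      have e2 : ((x + η) / (1 + 2 * η)) • ((1 + 2 * η) * ρ) • fz z 0 =
          (ρ * x) • fz z 0 + (η * ρ) • fz z 0 := by
        rw [smul_smul, ← add_smul]; congr 1; field_simp
      have e3 : ((y + η) / (1 + 2 * η)) • ((1 + 2 * η) * ρ) • fz z 1 =
          (ρ * y) • fz z 1 + (η * ρ) • fz z 1 := by
        rw [smul_smul, ← add_smul]; congr 1; field_simp
      have e4 : p + s • V p = pz z + s • V (pz z) + ((p - pz z) + s • A (p - pz z) + e) := by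
        rw [he]; simp only [smul_sub]; abel
      rw [e4, heq, e1, e2, e3, latPt_zero_add (fz z) (pz z)]
      simp only [smul_add]
      abel
  · -- the cost
    rw [Finset.sum_sigma]
    have hF01 : ∀ q ∈ K0, 0 ≤ Jc h (V q) ∧ Jc h (V q) ≤ 1 :=
      fun q _ => ⟨Jc_nonneg h _, Jc_le_one h _⟩
    have hFc : ContinuousOn (fun q => Jc h (V q)) K0 :=
      (Jc_continuous hJ h hh).comp_continuousOn (hV.continuousOn.mono hKU)
    have hIsub : ∀ z ∈ Z, ∀ j ∈ I z, sq (fz z) (latPt (fz z) (pz z) ρ j) ρ ⊆ CellP z :=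
      fun z _ j hj => ((hImem z j).1 hj).2
    have hJv : ∀ z ∈ Z, ∀ j ∈ I z, ∀ q ∈ sq (fz z) (latPt (fz z) (pz z) ρ j) ρ,
        Jc h (V (pz z) + fderiv ℝ V (pz z) (latPt (fz z) (pz z) ρ j - pz z)) ≤
          Jc h (V q) + τ := by
      intro z hz j hj q hq
      have hqP : q ∈ CellP z := hIsub z hz j hj hq
      have hlP : latPt (fz z) (pz z) ρ j ∈ CellP z := hIsub z hz j hj (self_mem_sq _ _ ρ hρ)
      have h1 := hτ (pz z) (hpz z hz).2 q (hZK z hz hqP) (latPt (fz z) (pz z) ρ j - pz z)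
        (hCellPdiam z q hqP _ (hpzP z hz)) (hCellPdiam z _ hlP _ (hpzP z hz))
      have h2 := hJ h hh (V (pz z) + fderiv ℝ V (pz z) (latPt (fz z) (pz z) ρ j - pz z)) (V q)
      have h3 := (abs_le.mp (h2.trans h1)).2
      linarith
    rw [hCellP] at hZK hIsub
    have hcost' := hcost D K0 hD hK0 (fun q => Jc h (V q)) hFc hF01 f₀ r t ρ τ hr ht0 hρ hτ0 hDr
      Z (fun z hz => (hZmem z).1 hz) hZK fz pz I hIsub
      (fun z j => Jc h (V (pz z) + fderiv ℝ V (pz z) (latPt (fz z) (pz z) ρ j - pz z))) hJv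
    calc ∑ z ∈ Z, ∑ j ∈ I z, ‖((1 + 2 * η) * ρ) • fz z 0‖ ^ 2 *
          Jc h (V (pz z) + fderiv ℝ V (pz z) (latPt (fz z) (pz z) ρ j - pz z))
        = (1 + 2 * η) ^ 2 * ∑ z ∈ Z, ∑ j ∈ I z, ρ ^ 2 *
          Jc h (V (pz z) + fderiv ℝ V (pz z) (latPt (fz z) (pz z) ρ j - pz z)) := by
          rw [Finset.mul_sum]
          refine Finset.sum_congr rfl fun z _ => ?_
          rw [Finset.mul_sum]
          refine Finset.sum_congr rfl fun j _ => ?_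
          rw [norm_smul, (fz z).norm_eq_one, mul_one, Real.norm_eq_abs, sq_abs]
          ring
      _ ≤ _ := mul_le_mul_of_nonneg_left hcost' (by positivity)

end Crest.Agent.Helper5
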