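import Crest.Agent.Helper5.SqBasic

/-!
# Row 211 / S0326: the local covering lemma
-/

set_option autoImplicit false

namespace Crest.Agent.Helper5

/-- The lattice covering property (statement of the kit lemma K1). -/
def LatticeCover : Prop :=
  ∀ (b c : ℝ), 0 ≤ b * c → b * c < 1 → ∀ u v : ℝ,
    ∃ m n : ℤ, u - 1 ≤ (m : ℝ) + b * n ∧ (m : ℝ) + b * n ≤ u ∧
      v - 1 ≤ c * (m : ℝ) + n ∧ c * (m : ℝ) + n ≤ v

variable (f : OrthonormalBasis (Fin 2) ℝ E2)

theorem frame_map (A : E2 →L[ℝ] E2) (α γ : ℝ) (hA0 : A (f 0) = γ • f 1)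
    (hA1 : A (f 1) = α • f 0) (x y : ℝ) :
    A (x • f 0 + y • f 1) = (α * y) • f 0 + (γ * x) • f 1 := by
  rw [map_add, map_smul, map_smul, hA0, hA1, smul_smul, smul_smul, add_comm, mul_comm y α,
    mul_comm x γ]

theorem local_cover (hlat : LatticeCover) (A : E2 →L[ℝ] E2) (α γ : ℝ)
    (hA0 : A (f 0) = γ • f 1) (hA1 : A (f 1) = α • f 0)
    (L κ M₁ : ℝ) (hL : 0 < L) (hκ : 0 < κ) (hM : 0 ≤ M₁)
    (h0 : 0 ≤ α * γ) (h1 : L ^ 2 * (α * γ) ≤ 1 - κ) (hα : |α| ≤ M₁) (hγ : |γ| ≤ M₁)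
    (ρ η : ℝ) (hρ : 0 < ρ) (hη : 0 ≤ η) (s : ℝ) (hs : |s| ≤ L) (w e : E2)
    (he : ‖e‖ ≤ η * ρ) :
    ∃ j : ℤ × ℤ, ∃ x ∈ Set.Icc (-η) (1 + η), ∃ y ∈ Set.Icc (-η) (1 + η),
      w + s • A w + e =
        latPt f 0 ρ j + s • A (latPt f 0 ρ j) + (ρ * x) • f 0 + (ρ * y) • f 1 ∧
      ‖w - latPt f 0 ρ j‖ ≤ (2 * (1 + L * M₁) / κ) * ρ := by
  obtain ⟨w0, w1, rfl⟩ : ∃ w0 w1 : ℝ, w = w0 • f 0 + w1 • f 1 := ⟨_, _, frame_decomp f w⟩
  obtain ⟨e0, e1, rfl⟩ : ∃ e0 e1 : ℝ, e = e0 • f 0 + e1 • f 1 := ⟨_, _, frame_decomp f e⟩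
  have he0 : |e0| ≤ η * ρ := by
    have := frame_abs_inner_le f 0 (e0 • f 0 + e1 • f 1)
    rw [frame_inner_comb0] at this
    exact this.trans he
  have he1 : |e1| ≤ η * ρ := by
    have := frame_abs_inner_le f 1 (e0 • f 0 + e1 • f 1)
    rw [frame_inner_comb1] at this
    exact this.trans he
  have hs2 : s ^ 2 ≤ L ^ 2 := by
    have := abs_le.mp hs
    nlinarith
  have hb0 : 0 ≤ (s * α) * (s * γ) := by
    have : (s * α) * (s * γ) = s ^ 2 * (α * γ) := by ring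
    rw [this]; positivity
  have hb1 : (s * α) * (s * γ) ≤ 1 - κ := by
    have : (s * α) * (s * γ) = s ^ 2 * (α * γ) := by ring
    rw [this]
    nlinarith
  obtain ⟨m, n, hm1, hm2, hn1, hn2⟩ :=
    hlat (s * α) (s * γ) hb0 (by linarith) ((w0 + s * α * w1) / ρ) ((w1 + s * γ * w0) / ρ)
  -- scaled versions
  have hm1' : w0 + s * α * w1 - ρ ≤ ρ * (m + s * α * n) := by
    have := mul_le_mul_of_nonneg_left hm1 hρ.le
    have e : ρ * ((w0 + s * α * w1) / ρ - 1) = w0 + s * α * w1 - ρ := by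
      field_simp
    linarith
  have hm2' : ρ * (m + s * α * n) ≤ w0 + s * α * w1 := by
    have := mul_le_mul_of_nonneg_left hm2 hρ.le
    have e : ρ * ((w0 + s * α * w1) / ρ) = w0 + s * α * w1 := by
      field_simp
    linarith
  have hn1' : w1 + s * γ * w0 - ρ ≤ ρ * (s * γ * m + n) := by
    have := mul_le_mul_of_nonneg_left hn1 hρ.le
    have e : ρ * ((w1 + s * γ * w0) / ρ - 1) = w1 + s * γ * w0 - ρ := by
      field_simp
    linarith
  have hn2' : ρ * (s * γ * m + n) ≤ w1 + s * γ * w0 := by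
    have := mul_le_mul_of_nonneg_left hn2 hρ.le
    have e : ρ * ((w1 + s * γ * w0) / ρ) = w1 + s * γ * w0 := by
      field_simp
    linarith
  set X : ℝ := w0 + s * α * w1 - ρ * (m + s * α * n) + e0 with hX
  set Y : ℝ := w1 + s * γ * w0 - ρ * (s * γ * m + n) + e1 with hY
  have hlatpt : latPt f 0 ρ (m, n) = (ρ * m) • f 0 + (ρ * n) • f 1 := by
    rw [latPt_eq, zero_add]
  have he0' := abs_le.mp he0
  have he1' := abs_le.mp he1
  refine ⟨(m, n), X / ρ, ?_, Y / ρ, ?_, ?_, ?_⟩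
  · rw [Set.mem_Icc, le_div_iff₀ hρ, div_le_iff₀ hρ]
    constructor <;> nlinarith
  · rw [Set.mem_Icc, le_div_iff₀ hρ, div_le_iff₀ hρ]
    constructor <;> nlinarith
  · rw [hlatpt, frame_map f A α γ hA0 hA1, frame_map f A α γ hA0 hA1,
      mul_div_cancel₀ _ hρ.ne', mul_div_cancel₀ _ hρ.ne', hX, hY]
    module
  · rw [hlatpt]
    have hd : w0 • f 0 + w1 • f 1 - ((ρ * m) • f 0 + (ρ * n) • f 1) =
        (w0 - ρ * m) • f 0 + (w1 - ρ * n) • f 1 := by module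
    rw [hd]
    refine (norm_add_le _ _).trans ?_
    rw [norm_smul, norm_smul, f.norm_eq_one, f.norm_eq_one, mul_one, mul_one, Real.norm_eq_abs,
      Real.norm_eq_abs]
    -- the coordinates d0, d1
    set d0 : ℝ := w0 - ρ * m with hd0
    set d1 : ℝ := w1 - ρ * n with hd1
    set b : ℝ := s * α with hb
    set c : ℝ := s * γ with hc
    clear_value d0 d1 b c
    -- ρ x0 = d0 + b d1 ∈ [0, ρ],  ρ y0 = d1 + c d0 ∈ [0, ρ]
    have hx0 : 0 ≤ d0 + b * d1 ∧ d0 + b * d1 ≤ ρ := by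
      have ex : d0 + b * d1 = (w0 + b * w1) - ρ * (m + b * n) := by
        rw [hd0, hd1]; ring
      rw [ex]
      constructor <;> linarith
    have hy0 : 0 ≤ d1 + c * d0 ∧ d1 + c * d0 ≤ ρ := by
      have ey : d1 + c * d0 = (w1 + c * w0) - ρ * (c * m + n) := by
        rw [hd0, hd1]; ring
      rw [ey]
      constructor <;> linarith
    have habs_b : |b| ≤ L * M₁ := by
      rw [hb, abs_mul]
      exact mul_le_mul hs hα (abs_nonneg _) hL.le
    have habs_c : |c| ≤ L * M₁ := by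
      rw [hc, abs_mul]
      exact mul_le_mul hs hγ (abs_nonneg _) hL.le
    have hLM : 0 ≤ L * M₁ := by positivity
    have hbc : κ ≤ 1 - b * c := by linarith only [hb1]
    -- d0 (1 - bc) = (d0 + b d1) - b (d1 + c d0)
    have hD0 : |d0| * κ ≤ ρ * (1 + L * M₁) := by
      have e1 : d0 * (1 - b * c) = (d0 + b * d1) - b * (d1 + c * d0) := by ring
      have e2 : |d0| * (1 - b * c) = |(d0 + b * d1) - b * (d1 + c * d0)| := by
        rw [← e1, abs_mul, abs_of_nonneg (by linarith : (0:ℝ) ≤ 1 - b * c)]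
      have e3 : |(d0 + b * d1) - b * (d1 + c * d0)| ≤ ρ + L * M₁ * ρ := by
        refine (abs_sub _ _).trans ?_
        rw [abs_mul, abs_of_nonneg hx0.1, abs_of_nonneg hy0.1]
        have := mul_le_mul habs_b hy0.2 hy0.1 hLM
        linarith only [hx0.2, this]
      have e4 : |d0| * κ ≤ |d0| * (1 - b * c) :=
        mul_le_mul_of_nonneg_left hbc (abs_nonneg _)
      linarith only [e2, e3, e4]
    have hD1 : |d1| * κ ≤ ρ * (1 + L * M₁) := by
      have e1 : d1 * (1 - b * c) = (d1 + c * d0) - c * (d0 + b * d1) := by ring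
      have e2 : |d1| * (1 - b * c) = |(d1 + c * d0) - c * (d0 + b * d1)| := by
        rw [← e1, abs_mul, abs_of_nonneg (by linarith : (0:ℝ) ≤ 1 - b * c)]
      have e3 : |(d1 + c * d0) - c * (d0 + b * d1)| ≤ ρ + L * M₁ * ρ := by
        refine (abs_sub _ _).trans ?_
        rw [abs_mul, abs_of_nonneg hx0.1, abs_of_nonneg hy0.1]
        have := mul_le_mul habs_c hx0.2 hx0.1 hLM
        linarith only [hy0.2, this]
      have e4 : |d1| * κ ≤ |d1| * (1 - b * c) :=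
        mul_le_mul_of_nonneg_left hbc (abs_nonneg _)
      linarith only [e2, e3, e4]
    have : (|d0| + |d1|) * κ ≤ 2 * (1 + L * M₁) * ρ := by linarith only [hD0, hD1]
    rw [div_mul_eq_mul_div, le_div_iff₀ hκ]
    exact this

end Crest.Agent.Helper5
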