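import Crest.Agent.Helper5.SqCore

/-!
# Row 211 / S0326: parameter choice and final assembly
-/

set_option autoImplicit false
open MeasureTheory Metric

namespace Crest.Agent.Helper5

/-- Re-indexing a finite family by `Fin k`. -/
theorem reindex {ι : Type*} (S : Finset ι) (c a b g : ι → E2) (D : Set E2) (V : E2 → E2)
    (L h bound : ℝ)
    (h1 : ∀ i ∈ S, a i ≠ 0 ∧ ‖b i‖ = ‖a i‖ ∧ inner ℝ (a i) (b i) = 0)
    (h2 : ∀ z : ℝ × E2, (∃ p ∈ D, |z.1| ≤ L ∧ z.2 = p + z.1 • V p) →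
        ∃ i ∈ S, ∃ x ∈ Set.Icc (0 : ℝ) 1, ∃ y ∈ Set.Icc (0 : ℝ) 1,
          z.2 = c i + x • a i + y • b i + z.1 • g i)
    (h3 : ∑ i ∈ S, ‖a i‖ ^ 2 * Jc h (g i) ≤ bound) :
    ∃ (k : ℕ) (c a b g : Fin k → E2),
      (∀ i, a i ≠ 0 ∧ ‖b i‖ = ‖a i‖ ∧ inner ℝ (a i) (b i) = 0) ∧
      {z : ℝ × E2 | ∃ p ∈ D, abs z.1 ≤ L ∧ z.2 = p + z.1 • V p} ⊆
        ⋃ i, {z : ℝ × E2 | ∃ x ∈ Set.Icc (0 : ℝ) 1, ∃ y ∈ Set.Icc (0 : ℝ) 1,
          z.2 = c i + x • a i + y • b i + z.1 • g i} ∧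
      ∑ i, ‖a i‖ ^ 2 / Real.sqrt (1 + (g i 0) ^ 2 + h ^ 2 * (g i 1) ^ 2) ≤ bound := by
  classical
  let e := S.equivFin
  refine ⟨S.card, fun i => c (e.symm i).1, fun i => a (e.symm i).1, fun i => b (e.symm i).1,
    fun i => g (e.symm i).1, fun i => h1 _ (e.symm i).2, ?_, ?_⟩
  · intro z hz
    obtain ⟨i, hi, x, hx, y, hy, heq⟩ := h2 z hz
    refine Set.mem_iUnion.2 ⟨e ⟨i, hi⟩, x, hx, y, hy, ?_⟩
    simp only [Equiv.symm_apply_apply]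
    exact heq
  · have : ∑ i : Fin S.card, ‖a (e.symm i).1‖ ^ 2 /
          Real.sqrt (1 + (g (e.symm i).1 0) ^ 2 + h ^ 2 * (g (e.symm i).1 1) ^ 2) =
        ∑ i ∈ S, ‖a i‖ ^ 2 * Jc h (g i) := by
      rw [← Finset.sum_coe_sort S (fun i => ‖a i‖ ^ 2 * Jc h (g i))]
      rw [← Equiv.sum_comp e.symm]
      refine Finset.sum_congr rfl fun i _ => ?_
      unfold Jc
      rw [div_eq_mul_one_div]
    rw [this]
    exact h3

/-- The compactness constants. -/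
theorem constants (D : Set E2) (hD : IsCompact D) (hDne : D.Nonempty) (V : E2 → E2) (U : Set E2)
    (hU : IsOpen U) (hDU : D ⊆ U) (hV : ContDiffOn ℝ 1 V U) (L : ℝ) (hL : 0 < L)
    (hdet : ∀ p ∈ D, -(L ^ 2)⁻¹ < LinearMap.det (fderiv ℝ V p).toLinearMap ∧
      LinearMap.det (fderiv ℝ V p).toLinearMap ≤ 0) :
    ∃ (δ₀ M₁ κ : ℝ), 0 < δ₀ ∧ cthickening δ₀ D ⊆ U ∧ 0 ≤ M₁ ∧
      (∀ q ∈ D, ‖fderiv ℝ V q‖ ≤ M₁) ∧ 0 < κ ∧
      (∀ p ∈ D, LinearMap.det (fderiv ℝ V p).toLinearMap ≤ 0 ∧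
        L ^ 2 * (-LinearMap.det (fderiv ℝ V p).toLinearMap) ≤ 1 - κ) := by
  obtain ⟨δ₀, hδ₀, hsub⟩ := hD.exists_cthickening_subset_open hU hDU
  have hDVc : ContinuousOn (fderiv ℝ V) U := hV.continuousOn_fderiv_of_isOpen hU le_rfl
  obtain ⟨C, hC⟩ := hD.exists_bound_of_continuousOn (hDVc.mono hDU)
  have hdetc : ContinuousOn (fun p => LinearMap.det (fderiv ℝ V p).toLinearMap) D :=
    ContinuousLinearMap.continuous_det.comp_continuousOn (hDVc.mono hDU)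
  obtain ⟨ps, hps, hmin⟩ := hD.exists_isMinOn hDne hdetc
  have hL2 : 0 < L ^ 2 := by positivity
  refine ⟨δ₀, max C 0, 1 + L ^ 2 * LinearMap.det (fderiv ℝ V ps).toLinearMap, hδ₀, hsub,
    le_max_right _ _, fun q hq => (hC q hq).trans (le_max_left _ _), ?_, fun p hp => ⟨(hdet p hp).2, ?_⟩⟩
  · have h1 := (hdet ps hps).1
    have h2 : L ^ 2 * (-(L ^ 2)⁻¹) < L ^ 2 * LinearMap.det (fderiv ℝ V ps).toLinearMap :=
      mul_lt_mul_of_pos_left h1 hL2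
    have h3 : L ^ 2 * (-(L ^ 2)⁻¹) = -1 := by
      field_simp
    linarith only [h2, h3]
  · have h1 : LinearMap.det (fderiv ℝ V ps).toLinearMap ≤
        LinearMap.det (fderiv ℝ V p).toLinearMap := isMinOn_iff.1 hmin p hp
    have h2 := mul_le_mul_of_nonneg_left h1 hL2.le
    linarith only [h2]

set_option maxHeartbeats 1600000 in
theorem main (hlat : LatticeCover) (hframe : FrameProp) (hJ : JLip) (hcost : CostProp)
    (D : Set E2) (hD : IsCompact D) (V : E2 → E2) (U : Set E2)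
    (hU : IsOpen U) (hDU : D ⊆ U) (hV : ContDiffOn ℝ 1 V U) (L h : ℝ) (hL : 0 < L) (hh : 0 < h)
    (htr : ∀ p ∈ D, LinearMap.trace ℝ _ (fderiv ℝ V p).toLinearMap = 0)
    (hdet : ∀ p ∈ D, -(L ^ 2)⁻¹ < LinearMap.det (fderiv ℝ V p).toLinearMap ∧
      LinearMap.det (fderiv ℝ V p).toLinearMap ≤ 0)
    (ε : ℝ) (hε : 0 < ε) :
    ∃ (k : ℕ) (c a b g : Fin k → E2),
      (∀ i, a i ≠ 0 ∧ ‖b i‖ = ‖a i‖ ∧ inner ℝ (a i) (b i) = 0) ∧
      {z : ℝ × E2 | ∃ p ∈ D, abs z.1 ≤ L ∧ z.2 = p + z.1 • V p} ⊆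
        ⋃ i, {z : ℝ × E2 | ∃ x ∈ Set.Icc (0 : ℝ) 1, ∃ y ∈ Set.Icc (0 : ℝ) 1,
          z.2 = c i + x • a i + y • b i + z.1 • g i} ∧
      ∑ i, ‖a i‖ ^ 2 / Real.sqrt (1 + (g i 0) ^ 2 + h ^ 2 * (g i 1) ^ 2) ≤
        (∫ p in D, 1 / Real.sqrt (1 + (V p 0) ^ 2 + h ^ 2 * (V p 1) ^ 2)) + ε := by
  rcases Set.eq_empty_or_nonempty D with hDe | hDne
  · subst hDe
    refine ⟨0, Fin.elim0, Fin.elim0, Fin.elim0, Fin.elim0, fun i => i.elim0, ?_, ?_⟩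
    · rintro z ⟨p, hp, _⟩
      exact absurd hp (Set.notMem_empty p)
    · simp [hε.le]
  obtain ⟨δ₀, M₁, κ, hδ₀, hK0U, hM₁0, hM₁, hκ, hdetκ⟩ :=
    constants D hD hDne V U hU hDU hV L hL hdet
  obtain ⟨K0, hK0def⟩ : ∃ K0 : Set E2, K0 = cthickening δ₀ D := ⟨_, rfl⟩
  have hK0 : IsCompact K0 := by rw [hK0def]; exact hD.cthickening
  have hKU : K0 ⊆ U := by rw [hK0def]; exact hK0U
  have hDK : D ⊆ K0 := by rw [hK0def]; exact self_subset_cthickening D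
  have hDVc : ContinuousOn (fderiv ℝ V) U := hV.continuousOn_fderiv_of_isOpen hU le_rfl
  obtain ⟨v0, hv0def⟩ : ∃ v0 : ℝ, v0 = (volume K0).toReal := ⟨_, rfl⟩
  have hv0 : 0 ≤ v0 := by rw [hv0def]; exact ENNReal.toReal_nonneg
  obtain ⟨I, hIdef⟩ : ∃ I : ℝ, I = ∫ q in D, Jc h (V q) := ⟨_, rfl⟩
  have hI0 : 0 ≤ I := by
    rw [hIdef]
    exact setIntegral_nonneg hD.measurableSet (fun q _ => Jc_nonneg h _)
  -- the small parameter
  have hden : 0 < 8 * I + 27 * v0 + 36 := by positivity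
  obtain ⟨σ, hσdef⟩ : ∃ σ : ℝ, σ = min 1 (ε / (8 * I + 27 * v0 + 36)) := ⟨_, rfl⟩
  have hσ : 0 < σ := by rw [hσdef]; exact lt_min one_pos (div_pos hε hden)
  have hσ1 : σ ≤ 1 := by rw [hσdef]; exact min_le_left _ _
  have hσε : σ * (8 * I + 27 * v0 + 36) ≤ ε := by
    have : σ ≤ ε / (8 * I + 27 * v0 + 36) := by rw [hσdef]; exact min_le_right _ _
    rwa [le_div_iff₀ hden] at this
  -- constants of the local covering
  obtain ⟨K2, hK2def⟩ : ∃ K2 : ℝ, K2 = 2 * (1 + L * M₁) / κ + 2 := ⟨_, rfl⟩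
  have hK2 : 2 ≤ K2 := by
    rw [hK2def]
    have : 0 ≤ 2 * (1 + L * M₁) / κ := by positivity
    linarith only [this]
  obtain ⟨N, hNdef⟩ : ∃ N : ℕ, N = ⌈(4 * K2 + 4 * K2 ^ 2) / σ⌉₊ + 1 := ⟨_, rfl⟩
  have hN1 : (1 : ℝ) ≤ N := by
    rw [hNdef]; push_cast
    linarith only [Nat.cast_nonneg (α := ℝ) ⌈(4 * K2 + 4 * K2 ^ 2) / σ⌉₊]
  have hNσ : 4 * K2 + 4 * K2 ^ 2 ≤ σ * N := by
    have h1 : (4 * K2 + 4 * K2 ^ 2) / σ ≤ N := by
      rw [hNdef]; push_cast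
      linarith only [Nat.le_ceil ((4 * K2 + 4 * K2 ^ 2) / σ)]
    rw [div_le_iff₀ hσ] at h1
    linarith only [h1]
  have hNpos : (0 : ℝ) < N := lt_of_lt_of_le one_pos hN1
  obtain ⟨ω, hωdef⟩ : ∃ ω : ℝ, ω = σ / (2 * L * N) := ⟨_, rfl⟩
  have hω0 : 0 < ω := by rw [hωdef]; positivity
  have hmax : (1 : ℝ) ≤ max 1 h := le_max_left _ _
  obtain ⟨τ₁, hτ₁def⟩ : ∃ τ₁ : ℝ, τ₁ = σ / (4 * max 1 h) := ⟨_, rfl⟩
  have hτ₁ : 0 < τ₁ := by rw [hτ₁def]; positivity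
  obtain ⟨δ₁, hδ₁, hunif1⟩ := unif_le K0 hK0 (fderiv ℝ V) (hDVc.mono hKU) ω hω0
  obtain ⟨δ₂, hδ₂, hunif2⟩ := unif_le K0 hK0 V (hV.continuousOn.mono hKU) τ₁ hτ₁
  obtain ⟨δ₃, hδ₃, hthick⟩ := thick_vol D hD σ hσ
  -- the mesh
  have hc1 : 0 < 2 * (1 + 2 * K2) := by positivity
  have hM1 : 0 < M₁ + 1 := by linarith only [hM₁0]
  obtain ⟨r, hrdef⟩ : ∃ r : ℝ, r = min (min (δ₀ / (2 * (1 + 2 * K2))) (δ₁ / 2))
      (min (min (δ₂ / (2 * (1 + 2 * K2))) (τ₁ / (2 * (1 + 2 * K2) * (M₁ + 1)))) (δ₃ / 2)) :=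
    ⟨_, rfl⟩
  have hr : 0 < r := by
    rw [hrdef]
    refine lt_min (lt_min (by positivity) (by positivity))
      (lt_min (lt_min (by positivity) (by positivity)) (by positivity))
  have hr1 : 2 * (1 + 2 * K2) * r ≤ δ₀ := by
    have : r ≤ δ₀ / (2 * (1 + 2 * K2)) := by
      rw [hrdef]; exact (min_le_left _ _).trans (min_le_left _ _)
    rw [le_div_iff₀ hc1] at this
    linarith only [this]
  have hr2 : 2 * r ≤ δ₁ := by
    have : r ≤ δ₁ / 2 := by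
      rw [hrdef]; exact (min_le_left _ _).trans (min_le_right _ _)
    linarith only [this]
  have hr3 : 2 * (1 + 2 * K2) * r ≤ δ₂ := by
    have : r ≤ δ₂ / (2 * (1 + 2 * K2)) := by
      rw [hrdef]; exact (min_le_right _ _).trans ((min_le_left _ _).trans (min_le_left _ _))
    rw [le_div_iff₀ hc1] at this
    linarith only [this]
  have hr4 : 2 * (1 + 2 * K2) * r * (M₁ + 1) ≤ τ₁ := by
    have : r ≤ τ₁ / (2 * (1 + 2 * K2) * (M₁ + 1)) := by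
      rw [hrdef]; exact (min_le_right _ _).trans ((min_le_left _ _).trans (min_le_right _ _))
    rw [le_div_iff₀ (by positivity)] at this
    linarith only [this]
  have hr5 : 2 * r ≤ δ₃ := by
    have : r ≤ δ₃ / 2 := by
      rw [hrdef]; exact (min_le_right _ _).trans (min_le_right _ _)
    linarith only [this]
  obtain ⟨ρ, hρdef⟩ : ∃ ρ : ℝ, ρ = r / N := ⟨_, rfl⟩
  have hρ : 0 < ρ := by rw [hρdef]; positivity
  have hρr : ρ ≤ r := by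
    rw [hρdef, div_le_iff₀ hNpos]
    exact le_mul_of_one_le_right hr.le hN1
  obtain ⟨t, htdef⟩ : ∃ t : ℝ, t = K2 * ρ := ⟨_, rfl⟩
  have ht0 : 0 ≤ t := by rw [htdef]; positivity
  have hK20 : (0 : ℝ) ≤ K2 := by linarith only [hK2]
  have htr' : t ≤ K2 * r := by rw [htdef]; exact mul_le_mul_of_nonneg_left hρr hK20
  -- the diameter bound
  have hd : 2 * (r + 2 * t) ≤ 2 * (1 + 2 * K2) * r := by linarith only [htr']
  have hball : ∀ p ∈ D, closedBall p (2 * (r + 2 * t)) ⊆ K0 := by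
    intro p hp
    rw [hK0def]
    exact (closedBall_subset_closedBall (hd.trans hr1)).trans (closedBall_subset_cthickening hp δ₀)
  have h2r : 2 * r ≤ δ₀ := by
    have := mul_nonneg hK20 hr.le
    linarith only [hr1, this]
  have hDr : cthickening (2 * r) D ⊆ K0 := by
    rw [hK0def]; exact cthickening_mono h2r D
  have hω' : ∀ x ∈ K0, ∀ y ∈ K0, dist x y ≤ 2 * r → ‖fderiv ℝ V x - fderiv ℝ V y‖ ≤ ω :=
    fun x hx y hy hxy => hunif1 x hx y hy (hxy.trans hr2)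
  have hωη : L * ω * (2 * r) ≤ σ * ρ := by
    have : L * ω * (2 * r) = σ * ρ := by
      rw [hωdef, hρdef]; field_simp
    exact this.le
  have hτ' : ∀ p ∈ D, ∀ q ∈ K0, ∀ u : E2, ‖q - p‖ ≤ 2 * (r + 2 * t) → ‖u‖ ≤ 2 * (r + 2 * t) →
      max 1 h * ‖V p + fderiv ℝ V p u - V q‖ ≤ σ := by
    intro p hp q hq u hqp hu
    have h1 : ‖fderiv ℝ V p u‖ ≤ τ₁ := by
      calc ‖fderiv ℝ V p u‖ ≤ ‖fderiv ℝ V p‖ * ‖u‖ := (fderiv ℝ V p).le_opNorm u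
        _ ≤ M₁ * (2 * (1 + 2 * K2) * r) :=
          mul_le_mul (hM₁ p hp) (hu.trans hd) (norm_nonneg _) hM₁0
        _ ≤ τ₁ := by linarith only [hr4, mul_pos hc1 hr]
    have h2 : ‖V p - V q‖ ≤ τ₁ := by
      refine hunif2 p (hDK hp) q hq ?_
      rw [dist_comm, dist_eq_norm]
      exact hqp.trans (hd.trans hr3)
    have h3 : ‖V p + fderiv ℝ V p u - V q‖ ≤ 2 * τ₁ := by
      have : V p + fderiv ℝ V p u - V q = fderiv ℝ V p u + (V p - V q) := by abel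
      rw [this]
      exact (norm_add_le _ _).trans (by linarith only [h1, h2])
    calc max 1 h * ‖V p + fderiv ℝ V p u - V q‖ ≤ max 1 h * (2 * τ₁) :=
          mul_le_mul_of_nonneg_left h3 (by linarith only [hmax])
      _ = σ / 2 := by
          have hm0 : max 1 h ≠ 0 := by linarith only [hmax]
          rw [hτ₁def]; field_simp; ring
      _ ≤ σ := by linarith only [hσ]
  have htK : t = (2 * (1 + L * M₁) / κ + 2) * ρ := by rw [htdef, hK2def]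
  obtain ⟨S, c, a, b, g, h1, h2, h3⟩ := core hlat hframe hJ hcost D hD V U hU hV L h hL hh htr
    K0 hK0 hKU M₁ κ hM₁0 hM₁ hκ hdetκ σ r ρ t σ ω hσ hr hρ hσ.le hω0.le htK hball hDr hω' hωη hτ'
  refine reindex S c a b g D V L h _ h1 h2 (h3.trans ?_)
  -- the final arithmetic
  rw [← hIdef, ← hv0def]
  have hβ : (volume (cthickening (2 * r) D)).toReal - (volume D).toReal ≤ σ :=
    hthick (2 * r) (by positivity) hr5
  obtain ⟨θ, hθdef⟩ : ∃ θ : ℝ, θ = (1 + 2 * t / r) ^ 2 - 1 := ⟨_, rfl⟩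
  have htr2 : 2 * t / r = 2 * K2 / N := by
    rw [htdef, hρdef]; field_simp
  have hθ0 : 0 ≤ θ := by
    rw [hθdef, htr2]
    have : 0 ≤ 2 * K2 / (N : ℝ) := by positivity
    nlinarith only [this]
  have hθσ : θ ≤ σ := by
    rw [hθdef, htr2]
    have hx : 2 * K2 / N * N = 2 * K2 := by field_simp
    have hx0 : 0 ≤ 2 * K2 / (N : ℝ) := by positivity
    -- (1 + x)^2 - 1 = 2x + x^2 with x = 2K2/N, x N = 2 K2
    have hx1 : 2 * K2 / (N : ℝ) ≤ 2 * K2 := by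
      rw [div_le_iff₀ hNpos]
      nlinarith only [mul_nonneg hK20 (by linarith only [hN1] : (0 : ℝ) ≤ N - 1)]
    have e1 : (1 + 2 * K2 / (N : ℝ)) ^ 2 - 1 = 2 * (2 * K2 / N) + (2 * K2 / N) ^ 2 := by ring
    rw [e1]
    have e2 : (2 * (2 * K2 / N) + (2 * K2 / N) ^ 2) * N ≤ σ * N := by
      have : (2 * (2 * K2 / N) + (2 * K2 / N) ^ 2) * N =
          2 * (2 * K2 / N * N) + (2 * K2 / N) * (2 * K2 / N * N) := by ring
      rw [this, hx]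
      nlinarith only [hNσ, mul_le_mul_of_nonneg_right hx1 (by linarith only [hK20] : (0 : ℝ) ≤ 2 * K2)]
    exact le_of_mul_le_mul_right e2 hNpos
  rw [← hθdef]
  obtain ⟨τ₂, hτ₂def⟩ : ∃ τ₂ : ℝ, τ₂ = σ + (1 + σ) * θ := ⟨_, rfl⟩
  rw [← hτ₂def]
  have hτ₂0 : 0 ≤ τ₂ := by rw [hτ₂def]; positivity
  have hτ₂ : τ₂ ≤ 3 * σ := by
    rw [hτ₂def]
    nlinarith only [hθσ, hθ0, hσ1, hσ, mul_nonneg (by linarith only [hσ1] : (0 : ℝ) ≤ 1 - σ) hθ0]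
  have hA : I + τ₂ * v0 + (1 + τ₂) *
      ((volume (cthickening (2 * r) D)).toReal - (volume D).toReal) ≤ I + 3 * σ * v0 + 4 * σ := by
    have h1 : τ₂ * v0 ≤ 3 * σ * v0 := mul_le_mul_of_nonneg_right hτ₂ hv0
    have h2 : (1 + τ₂) * ((volume (cthickening (2 * r) D)).toReal - (volume D).toReal) ≤
        (1 + τ₂) * σ := mul_le_mul_of_nonneg_left hβ (by linarith only [hτ₂0])
    have h4 : τ₂ * σ ≤ 3 * σ :=
      mul_le_mul_of_nonneg_right (hτ₂.trans (by linarith only [hσ1])) hσ.le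
    linarith only [h1, h2, h4]
  have hB : (1 + 2 * σ) ^ 2 ≤ 1 + 8 * σ := by
    nlinarith only [mul_nonneg hσ.le (by linarith only [hσ1] : (0 : ℝ) ≤ 1 - σ)]
  have hB9 : (1 + 2 * σ) ^ 2 ≤ 9 := by linarith only [hB, hσ1]
  have hIeq : (∫ p in D, 1 / Real.sqrt (1 + (V p 0) ^ 2 + h ^ 2 * (V p 1) ^ 2)) = I := by
    rw [hIdef]; rfl
  rw [hIeq]
  calc (1 + 2 * σ) ^ 2 * (I + τ₂ * v0 + (1 + τ₂) *
        ((volume (cthickening (2 * r) D)).toReal - (volume D).toReal))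
      ≤ (1 + 2 * σ) ^ 2 * (I + 3 * σ * v0 + 4 * σ) :=
        mul_le_mul_of_nonneg_left hA (by positivity)
    _ = (1 + 2 * σ) ^ 2 * I + (1 + 2 * σ) ^ 2 * (3 * σ * v0 + 4 * σ) := by ring
    _ ≤ (1 + 8 * σ) * I + 9 * (3 * σ * v0 + 4 * σ) :=
        add_le_add (mul_le_mul_of_nonneg_right hB hI0)
          (mul_le_mul_of_nonneg_right hB9 (by positivity))
    _ = I + σ * (8 * I + 27 * v0 + 36) := by ring
    _ ≤ I + ε := by linarith only [hσε]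

end Crest.Agent.Helper5
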